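import Mathlib.LinearAlgebra.Matrix.SpecialLinearGroup
import Mathlib.LinearAlgebra.Matrix.Transvection
import Mathlib.Tactic

/-!
Finite commutative rings have stable range one, and their special linear groups are generated by
transvections.
-/

namespace Vale.Agent.P183.R2.H278

open Matrix

section stable

variable {P : Type*} [CommRing P] [Finite P]

/-- Some positive power of an element of a finite ring is idempotent. -/
theorem exists_pow_idem (x : P) : ∃ n : ℕ, 0 < n ∧ x ^ n * x ^ n = x ^ n := by
  obtain ⟨i, j, hij, h⟩ : ∃ i j : ℕ, i < j ∧ x ^ i = x ^ j := by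
    obtain ⟨i, j, hne, h⟩ := Finite.exists_ne_map_eq_of_infinite (fun n : ℕ => x ^ n)
    rcases lt_or_gt_of_ne hne with h1 | h1
    · exact ⟨i, j, h1, h⟩
    · exact ⟨j, i, h1, h.symm⟩
  set m := j - i with hm
  have hmpos : 0 < m := by omega
  have h1 : ∀ k, i ≤ k → x ^ (k + m) = x ^ k := by
    intro k hk
    obtain ⟨r, rfl⟩ := Nat.exists_eq_add_of_le hk
    have : i + r + m = j + r := by omega
    rw [this, pow_add, ← h, pow_add]
  have h2 : ∀ l k, i ≤ k → x ^ (k + l * m) = x ^ k := by
    intro l
    induction l with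
    | zero => intro k _; simp
    | succ l ih =>
      intro k hk
      have : k + (l + 1) * m = (k + l * m) + m := by ring
      rw [this, h1 _ (by omega), ih k hk]
  refine ⟨(i + 1) * m, by positivity, ?_⟩
  rw [← pow_add]
  refine h2 (i + 1) _ ?_
  nlinarith

/-- Finite commutative rings have stable range one. -/
theorem exists_isUnit_add {x y a b : P} (h : a * x + b * y = 1) : ∃ t, IsUnit (x + t * y) := by
  obtain ⟨n, hn, he⟩ := exists_pow_idem x
  obtain ⟨m, rfl⟩ : ∃ m, n = m + 1 := ⟨n - 1, by omega⟩
  set e := x ^ (m + 1) with hedef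
  refine ⟨1 - e, ?_⟩
  have hinj : Function.Injective (fun z : P => (x + (1 - e) * y) * z) := by
    intro z₁ z₂ h12
    have key : ∀ z : P, (x + (1 - e) * y) * z = 0 → z = 0 := by
      intro z hz
      have h1 : e * x * z = 0 := by
        have : e * ((x + (1 - e) * y) * z) = e * x * z + (e - e * e) * y * z := by ring
        rw [hz, he] at this
        simpa using this.symm
      have h2 : e * z = 0 := by
        have : e * x ^ (m + 1) * z = x ^ m * (e * x * z) := by ring
        rw [h1, ← hedef, he] at this
        simpa using this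
      have h3 : x * z + y * z = 0 := by
        have : (x + (1 - e) * y) * z = x * z + y * z - y * (e * z) := by ring
        rw [hz, h2] at this
        simpa using this.symm
      have h4 : z = ((a - b) * x) * z := by
        calc z = (a * x + b * y) * z := by rw [h, one_mul]
          _ = a * (x * z) + b * (y * z) := by ring
          _ = a * (x * z) + b * (- (x * z)) := by rw [eq_neg_of_add_eq_zero_right h3]
          _ = _ := by ring
      have h5 : ∀ k : ℕ, z = ((a - b) * x) ^ k * z := by
        intro k
        induction k with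
        | zero => simp
        | succ k ih =>
          calc z = ((a - b) * x) ^ k * z := ih
            _ = ((a - b) * x) ^ k * (((a - b) * x) * z) := by rw [← h4]
            _ = _ := by ring
      have h6 := h5 (m + 1)
      rw [mul_pow, ← hedef, mul_assoc, h2, mul_zero] at h6
      exact h6
    have h0 : (x + (1 - e) * y) * (z₁ - z₂) = 0 := by
      have h12' : (x + (1 - e) * y) * z₁ = (x + (1 - e) * y) * z₂ := h12
      rw [mul_sub, h12', sub_self]
    exact sub_eq_zero.mp (key _ h0)
  obtain ⟨z, hz⟩ := (Finite.injective_iff_surjective.mp hinj) 1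
  exact IsUnit.of_mul_eq_one z hz

end stable

section gen

variable {P : Type*} [CommRing P] {n : Type*} [Fintype n] [DecidableEq n]

/-- All transvections lie in `H`. -/
def HasTrans (H : Subgroup (SpecialLinearGroup n P)) : Prop :=
  ∀ (i j : n) (h : i ≠ j) (c : P), SpecialLinearGroup.transvection h c ∈ H

theorem trans_mul_apply {i j : n} (h : i ≠ j) (c : P) (g : SpecialLinearGroup n P) (a b : n) :
    (SpecialLinearGroup.transvection h c * g).1 a b
      = g.1 a b + if a = i then c * g.1 j b else 0 := by
  rw [SpecialLinearGroup.coe_mul]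
  change (Matrix.transvection i j c * g.1) a b = _
  by_cases ha : a = i
  · subst ha
    rw [Matrix.transvection_mul_apply_same, if_pos rfl]
  · rw [Matrix.transvection_mul_apply_of_ne (ha := ha), if_neg ha, add_zero]

theorem mul_trans_apply {i j : n} (h : i ≠ j) (c : P) (g : SpecialLinearGroup n P) (a b : n) :
    (g * SpecialLinearGroup.transvection h c).1 a b
      = g.1 a b + if b = j then c * g.1 a i else 0 := by
  rw [SpecialLinearGroup.coe_mul]
  change (g.1 * Matrix.transvection i j c) a b = _
  by_cases hb : b = j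
  · subst hb
    rw [Matrix.mul_transvection_apply_same, if_pos rfl]
  · rw [Matrix.mul_transvection_apply_of_ne (hb := hb), if_neg hb, add_zero]

/-- Add a combination of the rows in `T` to the row `i₀`. -/
theorem rowsTo {H : Subgroup (SpecialLinearGroup n P)} (hH : HasTrans H) (i₀ : n) (c : n → P)
    (T : Finset n) : i₀ ∉ T → ∃ h ∈ H, ∀ (g : SpecialLinearGroup n P) (a b : n),
      (h * g).1 a b = g.1 a b + if a = i₀ then ∑ j ∈ T, c j * g.1 j b else 0 := by
  induction T using Finset.induction_on with
  | empty => intro _; exact ⟨1, H.one_mem, by intro g a b; simp⟩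
  | insert j T hj ih =>
    intro hi
    have hij : i₀ ≠ j := fun h => hi (by simp [h])
    obtain ⟨h, hh, hg⟩ := ih (fun h => hi (Finset.mem_insert_of_mem h))
    refine ⟨SpecialLinearGroup.transvection hij (c j) * h, H.mul_mem (hH _ _ _ _) hh, ?_⟩
    intro g a b
    rw [mul_assoc, trans_mul_apply, hg, hg, if_neg (Ne.symm hij), Finset.sum_insert hj]
    by_cases ha : a = i₀
    · simp only [if_pos ha]; ring
    · simp only [if_neg ha]; ring

/-- Add multiples of the row `i₀` to the rows in `T`. -/
theorem rowsFrom {H : Subgroup (SpecialLinearGroup n P)} (hH : HasTrans H) (i₀ : n) (c : n → P)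
    (T : Finset n) : i₀ ∉ T → ∃ h ∈ H, ∀ (g : SpecialLinearGroup n P) (a b : n),
      (h * g).1 a b = g.1 a b + if a ∈ T then c a * g.1 i₀ b else 0 := by
  induction T using Finset.induction_on with
  | empty => intro _; exact ⟨1, H.one_mem, by intro g a b; simp⟩
  | insert j T hj ih =>
    intro hi
    have hij : j ≠ i₀ := fun h => hi (by simp [h])
    obtain ⟨h, hh, hg⟩ := ih (fun h => hi (Finset.mem_insert_of_mem h))
    have hi' : i₀ ∉ T := fun h => hi (Finset.mem_insert_of_mem h)
    refine ⟨SpecialLinearGroup.transvection hij (c j) * h, H.mul_mem (hH _ _ _ _) hh, ?_⟩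
    intro g a b
    rw [mul_assoc, trans_mul_apply, hg, hg, if_neg hi']
    by_cases ha : a = j
    · subst ha; simp [hj]
    · simp [ha]

/-- Add multiples of the column `i₀` to the columns in `T`. -/
theorem colsFrom {H : Subgroup (SpecialLinearGroup n P)} (hH : HasTrans H) (i₀ : n) (c : n → P)
    (T : Finset n) : i₀ ∉ T → ∃ h ∈ H, ∀ (g : SpecialLinearGroup n P) (a b : n),
      (g * h).1 a b = g.1 a b + if b ∈ T then c b * g.1 a i₀ else 0 := by
  induction T using Finset.induction_on with
  | empty => intro _; exact ⟨1, H.one_mem, by intro g a b; simp⟩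
  | insert j T hj ih =>
    intro hi
    have hij : i₀ ≠ j := fun h => hi (by simp [h])
    obtain ⟨h, hh, hg⟩ := ih (fun h => hi (Finset.mem_insert_of_mem h))
    have hi' : i₀ ∉ T := fun h => hi (Finset.mem_insert_of_mem h)
    refine ⟨h * SpecialLinearGroup.transvection hij (c j), H.mul_mem hh (hH _ _ _ _), ?_⟩
    intro g a b
    rw [← mul_assoc, mul_trans_apply, hg, hg, if_neg hi']
    by_cases hb : b = j
    · subst hb; simp [hj]
    · simp [hb]

/-- The rows and columns in `s` are those of the identity. -/
def Done (s : Finset n) (g : SpecialLinearGroup n P) : Prop :=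
  ∀ a b : n, (a ∈ s ∨ b ∈ s) → g.1 a b = (1 : Matrix n n P) a b

theorem Done.eq_one {s : Finset n} {g : SpecialLinearGroup n P} (hg : Done s g)
    (hs : (sᶜ).card ≤ 1) : g = 1 := by
  have hdiag : g.1 = Matrix.diagonal (fun i => g.1 i i) := by
    ext a b
    by_cases hab : a = b
    · subst hab; simp
    · rw [Matrix.diagonal_apply_ne _ hab]
      have : a ∈ s ∨ b ∈ s := by
        by_contra hcon
        push Not at hcon
        apply hab
        exact Finset.card_le_one.mp hs a (by simp [hcon.1]) b (by simp [hcon.2])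
      rw [hg a b this, Matrix.one_apply_ne hab]
  have hdet : ∏ i, g.1 i i = 1 := by
    have h1 := g.2
    rw [hdiag, Matrix.det_diagonal] at h1
    exact h1
  have hall : ∀ i, g.1 i i = 1 := by
    intro i
    by_cases hi : i ∈ s
    · rw [hg i i (Or.inl hi), Matrix.one_apply_eq]
    · have h2 : ∏ j, g.1 j j = g.1 i i := by
        refine Finset.prod_eq_single i ?_ (by simp)
        intro j _ hji
        have hj : j ∈ s := by
          by_contra hj
          exact hji (Finset.card_le_one.mp hs j (by simp [hj]) i (by simp [hi]))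
        rw [hg j j (Or.inl hj), Matrix.one_apply_eq]
      rw [← h2, hdet]
  apply SpecialLinearGroup.ext
  intro a b
  rw [hdiag]
  simp only [hall, SpecialLinearGroup.coe_one]
  by_cases hab : a = b
  · subst hab; simp
  · rw [Matrix.diagonal_apply_ne _ hab, Matrix.one_apply_ne hab]

variable [Finite P]

theorem mem_of_done {H : Subgroup (SpecialLinearGroup n P)} (hH : HasTrans H) :
    ∀ (m : ℕ) (s : Finset n), (sᶜ).card = m → ∀ g : SpecialLinearGroup n P, Done s g → g ∈ H := by
  intro m
  induction m with
  | zero =>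
    intro s hs g hg
    rw [hg.eq_one (by omega)]
    exact H.one_mem
  | succ m ih =>
    intro s hs g hg
    by_cases hm : m = 0
    · rw [hg.eq_one (by omega)]
      exact H.one_mem
    -- two different indices outside `s`
    obtain ⟨i₀, hi₀, j₀, hj₀, hne⟩ := Finset.one_lt_card.mp (show 1 < (sᶜ).card by omega)
    rw [Finset.mem_compl] at hi₀ hj₀
    set T : Finset n := (insert i₀ s)ᶜ with hT
    have hiT : i₀ ∉ T := by simp [hT]
    have hjT : j₀ ∈ T := by simp [hT, hj₀, Ne.symm hne]
    have hTs : ∀ a, a ∈ T ↔ a ≠ i₀ ∧ a ∉ s := by intro a; simp [hT]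
    have nb : ∀ {x b : n}, x ∉ s → b ∈ s → x ≠ b := by
      intro x b hx hb h; rw [h] at hx; exact hx hb
    have nb' : ∀ {b x : n}, b ∈ s → x ∉ s → b ≠ x := fun hb hx => (nb hx hb).symm
    -- step 1: a unit at the place `(i₀, i₀)`
    have hinv : ∑ j, (g⁻¹).1 i₀ j * g.1 j i₀ = 1 := by
      have h1 : (g⁻¹ * g).1 i₀ i₀ = 1 := by rw [inv_mul_cancel]; simp
      rw [SpecialLinearGroup.coe_mul, Matrix.mul_apply] at h1
      exact h1
    set c : n → P := fun j => (g⁻¹).1 i₀ j with hc
    have hsplit : c i₀ * g.1 i₀ i₀ + 1 * ∑ j ∈ T, c j * g.1 j i₀ = 1 := by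
      rw [one_mul]
      refine Eq.trans ?_ hinv
      have h2 : (Finset.univ : Finset n) = insert i₀ (T ∪ s) := by
        ext a
        simp only [Finset.mem_univ, Finset.mem_insert, Finset.mem_union, hTs, true_iff]
        tauto
      have h3 : ∑ j ∈ insert i₀ (T ∪ s), (g⁻¹).1 i₀ j * g.1 j i₀
          = (g⁻¹).1 i₀ i₀ * g.1 i₀ i₀ + ∑ j ∈ T ∪ s, (g⁻¹).1 i₀ j * g.1 j i₀ :=
        Finset.sum_insert (by simp [hTs, hi₀])
      have h4 : ∑ j ∈ T ∪ s, (g⁻¹).1 i₀ j * g.1 j i₀ = ∑ j ∈ T, (g⁻¹).1 i₀ j * g.1 j i₀ := by
        rw [Finset.sum_union (by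
          rw [Finset.disjoint_left]; intro a ha; exact ((hTs a).mp ha).2)]
        have : ∑ j ∈ s, (g⁻¹).1 i₀ j * g.1 j i₀ = 0 := by
          refine Finset.sum_eq_zero ?_
          intro j hj
          rw [hg j i₀ (Or.inl hj), Matrix.one_apply_ne (nb' hj hi₀), mul_zero]
        rw [this, add_zero]
      rw [h2, h3, h4]
    obtain ⟨t, ht⟩ := exists_isUnit_add hsplit
    obtain ⟨h₁, hh₁, hg₁⟩ := rowsTo hH i₀ (fun j => t * c j) T hiT
    set g₁ := h₁ * g with hg₁def
    have hD₁ : Done s g₁ := by
      intro a b hab
      rw [hg₁def, hg₁]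
      by_cases ha : a = i₀
      · subst ha
        have hb : b ∈ s := hab.resolve_left hi₀
        rw [if_pos rfl, hg a b (Or.inr hb)]
        have : ∑ j ∈ T, t * c j * g.1 j b = 0 := by
          refine Finset.sum_eq_zero ?_
          intro j hj
          rw [hg j b (Or.inr hb), Matrix.one_apply_ne (nb ((hTs j).mp hj).2 hb),
            mul_zero]
        rw [this, add_zero]
      · rw [if_neg ha, add_zero]; exact hg a b hab
    have hu : IsUnit (g₁.1 i₀ i₀) := by
      rw [hg₁def, hg₁, if_pos rfl]
      have : ∑ j ∈ T, t * c j * g.1 j i₀ = t * ∑ j ∈ T, c j * g.1 j i₀ := by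
        rw [Finset.mul_sum]
        exact Finset.sum_congr rfl (fun j _ => by ring)
      rw [this]
      exact ht
    obtain ⟨u, hu⟩ := hu
    -- step 2: a one at the place `(j₀, i₀)`
    have hjs : i₀ ∉ ({j₀} : Finset n) := by simpa using hne
    have hjs' : j₀ ∉ ({i₀} : Finset n) := by simpa using hne.symm
    obtain ⟨h₂, hh₂, hg₂⟩ := rowsFrom hH i₀ (fun _ => (1 - g₁.1 j₀ i₀) * (u⁻¹ : Pˣ)) {j₀} hjs
    set g₂ := h₂ * g₁ with hg₂def
    have hD₂ : Done s g₂ := by
      intro a b hab
      rw [hg₂def, hg₂]
      by_cases ha : a = j₀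
      · subst ha
        have hb : b ∈ s := hab.resolve_left hj₀
        rw [if_pos (by simp), hD₁ a b (Or.inr hb), hD₁ i₀ b (Or.inr hb),
          Matrix.one_apply_ne (nb hi₀ hb), mul_zero, add_zero]
      · rw [if_neg (by simpa using ha), add_zero]; exact hD₁ a b hab
    have h21 : g₂.1 j₀ i₀ = 1 := by
      rw [hg₂def, hg₂, if_pos (by simp), ← hu, mul_assoc, Units.inv_mul]
      ring
    -- step 3: a one at the place `(i₀, i₀)`
    obtain ⟨h₃, hh₃, hg₃⟩ := rowsFrom hH j₀ (fun _ => 1 - g₂.1 i₀ i₀) {i₀} hjs'
    set g₃ := h₃ * g₂ with hg₃def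
    have hD₃ : Done s g₃ := by
      intro a b hab
      rw [hg₃def, hg₃]
      by_cases ha : a = i₀
      · subst ha
        have hb : b ∈ s := hab.resolve_left hi₀
        rw [if_pos (by simp), hD₂ a b (Or.inr hb), hD₂ j₀ b (Or.inr hb),
          Matrix.one_apply_ne (nb hj₀ hb), mul_zero, add_zero]
      · rw [if_neg (by simpa using ha), add_zero]; exact hD₂ a b hab
    have h31 : g₃.1 i₀ i₀ = 1 := by
      rw [hg₃def, hg₃, if_pos (by simp), h21]
      ring
    -- step 4: clear the column `i₀`
    obtain ⟨h₄, hh₄, hg₄⟩ := rowsFrom hH i₀ (fun a => - g₃.1 a i₀) T hiT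
    set g₄ := h₄ * g₃ with hg₄def
    have hD₄ : Done s g₄ := by
      intro a b hab
      rw [hg₄def, hg₄]
      by_cases ha : a ∈ T
      · have hb : b ∈ s := hab.resolve_left ((hTs a).mp ha).2
        rw [if_pos ha, hD₃ a b (Or.inr hb), hD₃ i₀ b (Or.inr hb),
          Matrix.one_apply_ne (nb hi₀ hb), mul_zero, add_zero]
      · rw [if_neg ha, add_zero]; exact hD₃ a b hab
    have hcol : ∀ a, g₄.1 a i₀ = (1 : Matrix n n P) a i₀ := by
      intro a
      by_cases has : a ∈ s
      · exact hD₄ a i₀ (Or.inl has)
      by_cases ha : a = i₀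
      · subst ha
        rw [hg₄def, hg₄, if_neg hiT, add_zero, h31, Matrix.one_apply_eq]
      · rw [hg₄def, hg₄, if_pos ((hTs a).mpr ⟨ha, has⟩), h31, Matrix.one_apply_ne ha]
        ring
    -- step 5: clear the row `i₀`
    obtain ⟨h₅, hh₅, hg₅⟩ := colsFrom hH i₀ (fun b => - g₄.1 i₀ b) T hiT
    set g₅ := g₄ * h₅ with hg₅def
    have hD₅ : Done (insert i₀ s) g₅ := by
      intro a b hab
      rw [hg₅def, hg₅, hcol]
      by_cases hb : b ∈ T
      · have hbs := (hTs b).mp hb
        rw [if_pos hb]
        have ha : a = i₀ ∨ a ∈ s := by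
          rcases hab with h | h
          · simpa using h
          · rcases Finset.mem_insert.mp h with h | h
            · exact absurd h hbs.1
            · exact absurd h hbs.2
        rcases ha with ha | ha
        · subst ha
          rw [Matrix.one_apply_eq, Matrix.one_apply_ne (Ne.symm hbs.1)]
          ring
        · have hai : a ≠ i₀ := nb' ha hi₀
          rw [hD₄ a b (Or.inl ha), Matrix.one_apply_ne hai, mul_zero, add_zero]
      · rw [if_neg hb, add_zero]
        have hb' : b = i₀ ∨ b ∈ s := by
          by_contra hcon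
          push Not at hcon
          exact hb ((hTs b).mpr hcon)
        rcases hb' with hb' | hb'
        · subst hb'; exact hcol a
        · exact hD₄ a b (Or.inr hb')
    have hcard : ((insert i₀ s)ᶜ).card = m := by
      have h1 : (insert i₀ s).card = s.card + 1 := Finset.card_insert_of_notMem hi₀
      have h2 := Finset.card_compl s
      have h3 := Finset.card_compl (insert i₀ s)
      omega
    have h5 : g₅ ∈ H := ih _ hcard g₅ hD₅
    have h4 : g₄ ∈ H := by
      have := H.mul_mem h5 (H.inv_mem hh₅)
      rwa [hg₅def, mul_inv_cancel_right] at this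
    have h3 : g₃ ∈ H := by
      have := H.mul_mem (H.inv_mem hh₄) h4
      rwa [hg₄def, inv_mul_cancel_left] at this
    have h2 : g₂ ∈ H := by
      have := H.mul_mem (H.inv_mem hh₃) h3
      rwa [hg₃def, inv_mul_cancel_left] at this
    have h1 : g₁ ∈ H := by
      have := H.mul_mem (H.inv_mem hh₂) h2
      rwa [hg₂def, inv_mul_cancel_left] at this
    have := H.mul_mem (H.inv_mem hh₁) h1
    rwa [hg₁def, inv_mul_cancel_left] at this

/-- Over a finite commutative ring, a subgroup of the special linear group that contains all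
transvections is everything. -/
theorem eq_top_of_hasTrans {H : Subgroup (SpecialLinearGroup n P)} (hH : HasTrans H) : H = ⊤ := by
  rw [eq_top_iff]
  intro g _
  refine mem_of_done hH _ ∅ rfl g ?_
  intro a b hab
  simp at hab

theorem sl_gen (g : SpecialLinearGroup n P) :
    g ∈ Subgroup.closure {t | ∃ (i j : n) (h : i ≠ j) (c : P),
      t = SpecialLinearGroup.transvection h c} := by
  have h : HasTrans (Subgroup.closure {t | ∃ (i j : n) (h : i ≠ j) (c : P),
      t = SpecialLinearGroup.transvection h c}) := by
    intro i j hij c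
    exact Subgroup.subset_closure ⟨i, j, hij, c, rfl⟩
  rw [eq_top_of_hasTrans h]
  exact Subgroup.mem_top _

end gen

section subring

variable {R : Type*} [CommRing R] {n : Type*} [Fintype n] [DecidableEq n]

/-- A subgroup of `SL n R` that contains the transvections with entry in a finite subring `P`
contains every matrix of `SL n R` with entries in `P`. -/
theorem mem_of_entries (P : Subring R) [Finite P] {L : Subgroup (SpecialLinearGroup n R)}
    (hL : ∀ (i j : n) (h : i ≠ j) (c : R), c ∈ P → SpecialLinearGroup.transvection h c ∈ L)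
    (g : SpecialLinearGroup n R) (hg : ∀ i j, g.1 i j ∈ P) : g ∈ L := by
  set H : Subgroup (SpecialLinearGroup n P) := L.comap (SpecialLinearGroup.map P.subtype) with hH
  have hT : HasTrans H := by
    intro i j hij c
    rw [hH, Subgroup.mem_comap]
    have : SpecialLinearGroup.map P.subtype (SpecialLinearGroup.transvection hij c)
        = SpecialLinearGroup.transvection hij (c : R) := by
      apply SpecialLinearGroup.ext
      intro a b
      simp only [SpecialLinearGroup.map_apply_coe, SpecialLinearGroup.transvection_coe,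
        RingHom.mapMatrix_apply, Matrix.map_apply, Matrix.add_apply, Matrix.one_apply,
        Matrix.single_apply]
      split_ifs <;> simp
    rw [this]
    exact hL i j hij c c.2
  have htop := eq_top_of_hasTrans hT
  have hdet : Matrix.det (Matrix.of fun i j => (⟨g.1 i j, hg i j⟩ : P)) = 1 := by
    apply Subtype.ext
    have h1 := RingHom.map_det P.subtype (Matrix.of fun i j => (⟨g.1 i j, hg i j⟩ : P))
    have h2 : P.subtype.mapMatrix (Matrix.of fun i j => (⟨g.1 i j, hg i j⟩ : P)) = g.1 := by
      ext a b
      rfl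
    rw [h2, g.2] at h1
    simpa using h1
  let g' : SpecialLinearGroup n P := ⟨Matrix.of fun i j => ⟨g.1 i j, hg i j⟩, hdet⟩
  have h2 : g' ∈ H := by rw [htop]; exact Subgroup.mem_top _
  rw [hH, Subgroup.mem_comap] at h2
  have h3 : SpecialLinearGroup.map P.subtype g' = g := by
    apply SpecialLinearGroup.ext
    intro a b
    rfl
  rwa [h3] at h2

end subring

end Vale.Agent.P183.R2.H278
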